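import Vale.Agent.P105.Algebra

namespace Vale.Agent.Results.P105.SalemSingular

open Vale.Agent.P105

theorem result :
    (∃ lam : ℝ, 1 / 2 < lam ∧ lam < 1 ∧ lam ^ 4 - lam ^ 3 - lam ^ 2 - lam + 1 = 0 ∧
      ¬ IsPisot lam⁻¹ ∧ IsSingular (bernoulliConv lam)) ∧
    (∀ lam : ℝ, 1 / 2 < lam → lam < 1 → IsSalem lam⁻¹ → (minpoly ℚ lam⁻¹).natDegree = 4 →
      ¬ IsPisot lam⁻¹ ∧ IsSingular (bernoulliConv lam)) := by
  refine ⟨exists_nonpisot, fun lam h1 _ h3 h4 => ⟨?_, ?_⟩⟩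
  · rintro ⟨-, -, h⟩
    obtain ⟨h5, -, -, z, hz, hz1⟩ := h3
    have := h z hz (by
      intro he
      rw [he, Complex.norm_real, Real.norm_eq_abs, abs_of_pos (by linarith)] at hz1
      linarith)
    linarith
  · have h2 : lam⁻¹ < 2 := by
      rw [inv_lt_comm₀ (by linarith) (by norm_num)]; linarith
    simpa using salem_singular h3 h4 h2

end Vale.Agent.Results.P105.SalemSingular
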